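import Vale.Agent.P032.R2.H784.Sys
import Vale.Agent.P032.S5.H767.Raw

/-!
# P032: coupled rings

Finitely many centres `c i`, letters `Λ` with colour sets `col i l`, closed sets `F i l`: the points
of `S(c i)` with the letter `l` (then all colours of `col i l` are in the palette).  Positions
`(i, k)`, `k : Fin 6`: the point of `S(c i)` in the direction `t + k` (unit 60 degrees).  Conflicts:
letters with a common colour at neighbours of one ring, and at equal directions of two centres at
distance one.  `Rings.sys`: the positions form a `Sys`.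
-/

open Set Filter Topology Metric

noncomputable section

namespace Vale.Agent.P032.S5.H767

open Vale.Agent.P032.Six Vale.Agent.P032.Words

/-- the angle coordinate is open onto the circle -/
theorem ev_sphere' {z : ℂ} {u : ℝ} {p : ℂ → Prop} (h : ∀ᶠ v in 𝓝 u, p (pt z v)) :
    ∀ᶠ q in 𝓝[sphere z 1] (pt z u), p q := by
  set w0 := cis (u * (Real.pi / 3)) with hw0
  have hn : ‖w0‖ = 1 := norm_cis _
  have hne : w0 ≠ 0 := by rw [← norm_pos_iff, hn]; exact one_pos
  have hpt : pt z u = z + w0 := rfl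
  have hcont : Tendsto (fun q : ℂ => u + 3 / Real.pi * ((q - z) / w0).arg) (𝓝 (pt z u)) (𝓝 u) := by
    have h1 : ContinuousAt Complex.arg ((pt z u - z) / w0) := by
      have e : (pt z u - z) / w0 = 1 := by rw [hpt, add_sub_cancel_left, div_self hne]
      rw [e]
      exact Complex.continuousAt_arg Complex.one_mem_slitPlane
    have h2 : ContinuousAt (fun q : ℂ => (q - z) / w0) (pt z u) := by fun_prop
    have h3 : ContinuousAt (fun q : ℂ => u + 3 / Real.pi * ((q - z) / w0).arg) (pt z u) :=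
      continuousAt_const.add (continuousAt_const.mul (ContinuousAt.comp' h1 h2))
    have h4 := h3.tendsto
    have e : u + 3 / Real.pi * ((pt z u - z) / w0).arg = u := by
      rw [hpt, add_sub_cancel_left, div_self hne, Complex.arg_one]; ring
    rwa [e] at h4
  filter_upwards [mem_nhdsWithin_of_mem_nhds (hcont.eventually h), self_mem_nhdsWithin] with q h1 h2
  have hq : ‖(q - z) / w0‖ = 1 := by
    rw [norm_div, hn, div_one, ← dist_eq_norm]; exact h2
  have h5 := Complex.norm_mul_exp_arg_mul_I ((q - z) / w0)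
  rw [hq, Complex.ofReal_one, one_mul] at h5
  have h6 : pt z (u + 3 / Real.pi * ((q - z) / w0).arg) = q := by
    unfold pt
    have e1 : (u + 3 / Real.pi * ((q - z) / w0).arg) * (Real.pi / 3) =
        u * (Real.pi / 3) + ((q - z) / w0).arg := by
      field_simp
    rw [e1, cis_add]
    have e2 : cis ((q - z) / w0).arg = (q - z) / w0 := h5
    rw [e2, ← hw0, mul_div_cancel₀ _ hne]
    ring
  rwa [h6] at h1

variable {U : Fin 6 → Set ℂ} {T : ℂ → Set (Fin 6)} {ι Λ : Type}

/-- letters on the circles of the centres -/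
structure Rings (T : ℂ → Set (Fin 6)) (c : ι → ℂ) (col : ι → Λ → Set (Fin 6))
    (F : ι → Λ → Set ℂ) : Prop where
  closed : ∀ i l, IsClosed (F i l)
  cover : ∀ i q, dist q (c i) = 1 → ∃ l, q ∈ F i l
  sub : ∀ i l q, dist q (c i) = 1 → q ∈ F i l → col i l ⊆ T q

/-- the point of a position -/
def pos (c : ι → ℂ) (p : ι × Fin 6) (t : ℝ) : ℂ := pt (c p.1) (t + (p.2.val : ℝ))

/-- the times at which a position has a letter -/
def posX (c : ι → ℂ) (F : ι → Λ → Set ℂ) (p : ι × Fin 6) (l : Λ) : Set ℝ :=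
  {t | pos c p t ∈ F p.1 l}

/-- neighbours: same ring, or equal directions at centres at distance one -/
def Nb (c : ι → ℂ) (p p' : ι × Fin 6) : Prop :=
  (p.1 = p'.1 ∧ (p'.2 = p.2 + 1 ∨ p.2 = p'.2 + 1)) ∨ (dist (c p.1) (c p'.1) = 1 ∧ p.2 = p'.2)

/-- conflicts -/
def Conf (c : ι → ℂ) (col : ι → Λ → Set (Fin 6)) (p : ι × Fin 6) (l : Λ) (p' : ι × Fin 6)
    (l' : Λ) : Prop := Nb c p p' ∧ (col p.1 l ∩ col p'.1 l').Nonempty

/-- the times away from the contacts -/
def Good (c : ι → ℂ) : Set ℝ :=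
  {t | ∀ i i' : ι, ∀ k : Fin 6, dist (c i) (c i') = 1 → pt (c i) (t + (k.val : ℝ)) ≠ c i' ∧
    pt (c i) (t + (k.val : ℝ)) + c i' ≠ 2 * c i}

theorem pt_step (z : ℂ) (u : ℝ) {w : ℂ} (h2 : ∀ᶠ v in 𝓝 u, pt z v = w) :
    False := by
  have hd : HasDerivAt (fun v : ℝ => pt z v)
      ((Real.pi / 3 : ℝ) • (Complex.I * cis (u * (Real.pi / 3)))) u := by
    have h3 : HasDerivAt (fun v : ℝ => v * (Real.pi / 3)) (Real.pi / 3) u := by
      simpa using (hasDerivAt_id u).mul_const (Real.pi / 3)
    have h4 := (hasDerivAt_cis (u * (Real.pi / 3))).scomp u h3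
    exact h4.const_add z
  have hc : HasDerivAt (fun v : ℝ => pt z v) 0 u :=
    (hasDerivAt_const u w).congr_of_eventuallyEq h2
  have := hd.unique hc
  rw [smul_eq_zero] at this
  rcases this with h5 | h5
  · have := Real.pi_pos; linarith
  · have h6 := congrArg norm h5
    rw [norm_mul, Complex.norm_I, norm_cis, norm_zero] at h6
    norm_num at h6

theorem off_open_dense (z w : ℂ) (s : ℝ) :
    IsOpen {t : ℝ | pt z (t + s) ≠ w} ∧ Dense {t : ℝ | pt z (t + s) ≠ w} := by
  have hc : Continuous fun t : ℝ => pt z (t + s) := (continuous_pt z).comp (by fun_prop)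
  refine ⟨isOpen_compl_singleton.preimage hc, ?_⟩
  have : {t : ℝ | pt z (t + s) ≠ w} = {t : ℝ | pt z (t + s) = w}ᶜ := rfl
  rw [this, ← interior_eq_empty_iff_dense_compl]
  by_contra hne
  obtain ⟨t, ht⟩ := Set.nonempty_iff_ne_empty.2 hne
  have h1 : ∀ᶠ v in 𝓝 t, pt z (v + s) = w := mem_interior_iff_mem_nhds.1 ht
  have h2 : Tendsto (fun v : ℝ => v - s) (𝓝 (t + s)) (𝓝 t) := by
    have : Continuous fun v : ℝ => v - s := by fun_prop
    have h3 := this.tendsto (t + s)
    simpa using h3
  refine pt_step z (t + s) (w := w) ?_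
  filter_upwards [h2.eventually h1] with v hv
  simpa using hv

theorem good_open_dense [Finite ι] (c : ι → ℂ) : IsOpen (Good c) ∧ Dense (Good c) := by
  have : Good c = ⋂ i, ⋂ i', ⋂ k : Fin 6, {t | dist (c i) (c i') = 1 →
      pt (c i) (t + (k.val : ℝ)) ≠ c i' ∧ pt (c i) (t + (k.val : ℝ)) + c i' ≠ 2 * c i} := by
    ext t; simp [Good]
  have key : ∀ i i' : ι, ∀ k : Fin 6,
      IsOpen {t : ℝ | dist (c i) (c i') = 1 → pt (c i) (t + (k.val : ℝ)) ≠ c i' ∧
        pt (c i) (t + (k.val : ℝ)) + c i' ≠ 2 * c i} ∧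
      Dense {t : ℝ | dist (c i) (c i') = 1 → pt (c i) (t + (k.val : ℝ)) ≠ c i' ∧
        pt (c i) (t + (k.val : ℝ)) + c i' ≠ 2 * c i} := by
    intro i i' k
    by_cases hd : dist (c i) (c i') = 1
    · have e : {t : ℝ | dist (c i) (c i') = 1 → pt (c i) (t + (k.val : ℝ)) ≠ c i' ∧
          pt (c i) (t + (k.val : ℝ)) + c i' ≠ 2 * c i} =
          {t | pt (c i) (t + (k.val : ℝ)) ≠ c i'} ∩
            {t | pt (c i) (t + (k.val : ℝ)) ≠ 2 * c i - c i'} := by
        ext t
        simp only [mem_ofPred_eq, mem_inter_iff, hd, forall_const]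
        refine and_congr_right fun _ => not_congr ?_
        constructor
        · intro h; rw [← h]; ring
        · intro h; rw [h]; ring
      rw [e]
      obtain ⟨h1, h2⟩ := off_open_dense (c i) (c i') (k.val : ℝ)
      obtain ⟨h3, h4⟩ := off_open_dense (c i) (2 * c i - c i') (k.val : ℝ)
      exact ⟨h1.inter h3, h2.inter_of_isOpen_left h4 h1⟩
    · have e : {t : ℝ | dist (c i) (c i') = 1 → pt (c i) (t + (k.val : ℝ)) ≠ c i' ∧
          pt (c i) (t + (k.val : ℝ)) + c i' ≠ 2 * c i} = univ := by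
        ext t; simp [hd]
      rw [e]; exact ⟨isOpen_univ, dense_univ⟩
  rw [this]
  have o1 : ∀ i i' : ι, IsOpen (⋂ k : Fin 6, {t : ℝ | dist (c i) (c i') = 1 →
      pt (c i) (t + (k.val : ℝ)) ≠ c i' ∧ pt (c i) (t + (k.val : ℝ)) + c i' ≠ 2 * c i}) :=
    fun i i' => isOpen_iInter_of_finite fun k => (key i i' k).1
  have d1 : ∀ i i' : ι, Dense (⋂ k : Fin 6, {t : ℝ | dist (c i) (c i') = 1 →
      pt (c i) (t + (k.val : ℝ)) ≠ c i' ∧ pt (c i) (t + (k.val : ℝ)) + c i' ≠ 2 * c i}) :=
    fun i i' => dense_iInter_of_isOpen (fun k => (key i i' k).1) fun k => (key i i' k).2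
  exact ⟨isOpen_iInter_of_finite fun i => isOpen_iInter_of_finite fun i' => o1 i i',
    dense_iInter_of_isOpen (fun i => isOpen_iInter_of_finite fun i' => o1 i i')
      fun i => dense_iInter_of_isOpen (o1 i) (d1 i)⟩

/-- a colour of a letter which is there on a neighbourhood is absent at the neighbours -/
theorem Rings.free {c : ι → ℂ} {col : ι → Λ → Set (Fin 6)} {F : ι → Λ → Set ℂ} (h : Irr U T)
    (R : Rings T c col F) {p p' : ι × Fin 6} (hN : Nb c p p') {t : ℝ} (ht : t ∈ Good c) {l : Λ}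
    (hl : ∀ᶠ s in 𝓝 t, s ∈ posX c F p l) {j : Fin 6} (hj : j ∈ col p.1 l) :
    j ∉ Pal U (pos c p' t) := by
  have hev : ∀ᶠ v in 𝓝 (t + (p.2.val : ℝ)), pt (c p.1) v ∈ F p.1 l := by
    have h2 : Tendsto (fun v : ℝ => v - (p.2.val : ℝ)) (𝓝 (t + (p.2.val : ℝ))) (𝓝 t) := by
      have : Continuous fun v : ℝ => v - (p.2.val : ℝ) := by fun_prop
      have h3 := this.tendsto (t + (p.2.val : ℝ))
      simpa using h3
    filter_upwards [h2.eventually hl] with v hv
    have hv' : pt (c p.1) (v - (p.2.val : ℝ) + (p.2.val : ℝ)) ∈ F p.1 l := hv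
    simpa using hv'
  have hev2 : ∀ᶠ q in 𝓝[sphere (c p.1) 1] (pos c p t), j ∈ T q := by
    filter_upwards [ev_sphere' (p := fun q => q ∈ F p.1 l) hev, self_mem_nhdsWithin] with q hq hq2
    exact R.sub p.1 l q hq2 hq hj
  have hz : dist (pos c p t) (c p.1) = 1 := dist_pt _ _
  rcases hN with ⟨h1, h2⟩ | ⟨h1, h2⟩
  · -- same ring
    have hv : dist (pos c p t) (pos c p' t) = 1 := by
      unfold pos
      rw [← h1]
      have k6 : ∀ a : Fin 6, ∀ s : ℝ, dist (pt (c p.1) (s + (a.val : ℝ)))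
          (pt (c p.1) (s + ((a + 1 : Fin 6).val : ℝ))) = 1 := by
        intro a s
        by_cases ha : a.val = 5
        · have e : (a + 1 : Fin 6) = 0 := by
            apply Fin.ext; simp [Fin.val_add, ha]
          rw [e, ha]
          have e2 := dist_pt_one (c p.1) (s + ((5 : ℕ) : ℝ))
          have e3 : s + ((5 : ℕ) : ℝ) + 1 = s + ((0 : Fin 6).val : ℝ) + 6 := by
            simp only [Fin.val_zero]; push_cast; ring
          rwa [e3, pt_six] at e2
        · have e : (a + 1 : Fin 6).val = a.val + 1 := by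
            have := a.isLt
            rw [Fin.val_add, show ((1 : Fin 6).val) = 1 from rfl, Nat.mod_eq_of_lt (by omega)]
          rw [e]
          have e2 := dist_pt_one (c p.1) (s + (a.val : ℝ))
          have e3 : s + (a.val : ℝ) + 1 = s + ((a.val + 1 : ℕ) : ℝ) := by push_cast; ring
          rwa [e3] at e2
      rcases h2 with h2 | h2
      · rw [h2]; exact k6 p.2 t
      · rw [h2, dist_comm]; exact k6 p'.2 t
    have hz' : dist (pos c p' t) (c p.1) = 1 := by rw [h1]; exact dist_pt _ _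
    obtain ⟨k1, k2⟩ := tri hz hz'
    exact line_free h hz hev2 hv (fun e => k1 e.symm) fun e => k2 (by rw [← e]; ring)
  · -- two centres at distance one
    have hd : pos c p' t = pos c p t + (c p'.1 - c p.1) := by
      unfold pos pt; rw [h2]; ring
    have hv : dist (pos c p t) (pos c p' t) = 1 := by
      rw [hd, dist_eq_norm, show pos c p t - (pos c p t + (c p'.1 - c p.1)) = c p.1 - c p'.1 by ring,
        ← dist_eq_norm]
      exact h1
    obtain ⟨g1, g2⟩ := ht p.1 p'.1 p.2 h1
    refine line_free h hz hev2 hv (fun e => g2 ?_) fun e => g1 ?_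
    · have e' : pos c p t = pt (c p.1) (t + (p.2.val : ℝ)) := rfl
      rw [← e']
      linear_combination hd.symm.trans e
    · have e' : pos c p t = pt (c p.1) (t + (p.2.val : ℝ)) := rfl
      rw [← e']
      linear_combination -(1 : ℂ) * e + hd

/-- **Coupled rings form a system.** -/
theorem Rings.sys [Finite ι] {c : ι → ℂ} {col : ι → Λ → Set (Fin 6)} {F : ι → Λ → Set ℂ}
    (h : Irr U T) (R : Rings T c col F) : Sys (posX c F) (Conf c col) (Good c) where
  closed := fun p l => by
    have hc : Continuous fun t : ℝ => pos c p t := (continuous_pt _).comp (by fun_prop)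
    exact (R.closed p.1 l).preimage hc
  cover := fun p t => R.cover p.1 _ (dist_pt _ _)
  gopen := (good_open_dense c).1
  gdense := (good_open_dense c).2
  free := fun p l t ht hl p' l' hC hl' => by
    obtain ⟨hN, j, hj, hj'⟩ := hC
    exact R.free h hN ht hl hj (h.sub _ (R.sub p'.1 l' _ (dist_pt _ _) hl' hj'))

/-- rotation of a selection by 60 degrees -/
def rot (h : ι × Fin 6 → Λ) : ι × Fin 6 → Λ := fun p => h (p.1, p.2 + 1)

theorem pos_add_one (c : ι → ℂ) (p : ι × Fin 6) (t : ℝ) :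
    pos c p (t + 1) = pos c (p.1, p.2 + 1) t := by
  obtain ⟨i, a⟩ := p
  unfold pos
  simp only
  by_cases ha : a.val = 5
  · have e : (a + 1 : Fin 6) = 0 := by
      apply Fin.ext; simp [Fin.val_add, ha]
    rw [e, ha]
    have e3 : t + 1 + ((5 : ℕ) : ℝ) = t + ((0 : Fin 6).val : ℝ) + 6 := by
      simp only [Fin.val_zero]; push_cast; ring
    rw [e3, pt_six]
  · have e : (a + 1 : Fin 6).val = a.val + 1 := by
      have := a.isLt
      rw [Fin.val_add, show ((1 : Fin 6).val) = 1 from rfl, Nat.mod_eq_of_lt (by omega)]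
    rw [e]
    congr 1
    push_cast; ring

/-- the rotated selection at `t + 1` -/
theorem sel_rot {c : ι → ℂ} {F : ι → Λ → Set ℂ} {t : ℝ} {h : ι × Fin 6 → Λ}
    (hh : Sel (posX c F) t h) : Sel (posX c F) (t + 1) (rot h) := by
  intro p
  have h1 : pos c p (t + 1) ∈ F p.1 (rot h p) := by
    rw [pos_add_one]; exact hh (p.1, p.2 + 1)
  exact h1

theorem nb_rot {c : ι → ℂ} {p p' : ι × Fin 6} :
    Nb c (p.1, p.2 + 1) (p'.1, p'.2 + 1) ↔ Nb c p p' := by
  unfold Nb
  simp only [add_left_inj]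

theorem legal_rot {c : ι → ℂ} {col : ι → Λ → Set (Fin 6)} {h : ι × Fin 6 → Λ}
    (hh : Legal (Conf c col) h) : Legal (Conf c col) (rot h) := fun p p' hc =>
  hh (p.1, p.2 + 1) (p'.1, p'.2 + 1) ⟨nb_rot.2 hc.1, hc.2⟩

/-- **No closed path.** If at every time all legal selections have the same class, then the class of
a legal selection is the class of its rotation. -/
theorem Rings.no_path [Finite ι] [Finite Λ] {c : ι → ℂ} {col : ι → Λ → Set (Fin 6)}
    {F : ι → Λ → Set ℂ} (h : Irr U T) (R : Rings T c col F) {γ : Type}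
    (cls : (ι × Fin 6 → Λ) → γ)
    (hadm : ∀ t s s', Sel (posX c F) t s → Legal (Conf c col) s → Sel (posX c F) t s' →
      Legal (Conf c col) s' → cls s = cls s') :
    ∃ s, Legal (Conf c col) s ∧ cls (rot s) = cls s := by
  have S := R.sys h
  obtain ⟨s, hs, hl⟩ := S.exists_legal 0
  exact ⟨s, hl, (S.class_eq cls isPreconnected_univ (fun t _ => hadm t) (mem_univ _) (mem_univ _)
    hs hl (sel_rot hs) (legal_rot hl)).symm⟩

end Vale.Agent.P032.S5.H767
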