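import Vale.Agent.P032.R2.H784.ConvW
import Vale.Agent.P032.S5.H767.Raw
import Vale.Agent.P032.S5.H824.Two

/-!
# P032: the convexity fact for every two-pair centre, no assumption on the unit circle

`Irr.conv_flip`: `z` a two-pair centre `ab | cd` with missing colours `e, f`.  Every open arc of `S(z)`
longer than 180 degrees contains an end `{a, b, e}` or `{c, d, f}` or a point with at least four colours
which is a flip point of class one.
-/

open Set Filter Topology Metric

noncomputable section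

namespace Vale.Agent.P032.S5.H767

open Vale.Agent.P032.Six Vale.Agent.P032.Words

variable {U : Fin 6 → Set ℂ} {T : ℂ → Set (Fin 6)} {z : ℂ} {a b c d e f : Fin 6}

/-- the angle coordinate is open onto the circle -/
theorem ev_sphere {z : ℂ} {u : ℝ} {p : ℂ → Prop} (h : ∀ᶠ v in 𝓝 u, p (pt z v)) :
    ∀ᶠ q in 𝓝[sphere z 1] (pt z u), p q := by
  set w0 := cis (u * (Real.pi / 3)) with hw0
  have hn : ‖w0‖ = 1 := norm_cis _
  have hne : w0 ≠ 0 := by rw [← norm_pos_iff, hn]; exact one_pos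
  have hpt : pt z u = z + w0 := rfl
  have hcont : Tendsto (fun q : ℂ => u + 3 / Real.pi * ((q - z) / w0).arg) (𝓝 (pt z u)) (𝓝 u) := by
    have h1 : ContinuousAt Complex.arg ((pt z u - z) / w0) := by
      have e : (pt z u - z) / w0 = 1 := by rw [hpt, add_sub_cancel_left, div_self hne]
      rw [e]
      exact Complex.continuousAt_arg Complex.one_mem_slitPlane
    have h2 : ContinuousAt (fun q : ℂ => (q - z) / w0) (pt z u) := by fun_prop
    have h3 : ContinuousAt (fun q : ℂ => u + 3 / Real.pi * ((q - z) / w0).arg) (pt z u) :=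
      continuousAt_const.add (continuousAt_const.mul (ContinuousAt.comp' h1 h2))
    have h4 := h3.tendsto
    have e : u + 3 / Real.pi * ((pt z u - z) / w0).arg = u := by
      rw [hpt, add_sub_cancel_left, div_self hne, Complex.arg_one]; ring
    rwa [e] at h4
  filter_upwards [mem_nhdsWithin_of_mem_nhds (hcont.eventually h), self_mem_nhdsWithin] with q h1 h2
  have hq : ‖(q - z) / w0‖ = 1 := by
    rw [norm_div, hn, div_one, ← dist_eq_norm]; exact h2
  have h5 := Complex.norm_mul_exp_arg_mul_I ((q - z) / w0)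
  rw [hq, Complex.ofReal_one, one_mul] at h5
  have h6 : pt z (u + 3 / Real.pi * ((q - z) / w0).arg) = q := by
    unfold pt
    have e1 : (u + 3 / Real.pi * ((q - z) / w0).arg) * (Real.pi / 3) =
        u * (Real.pi / 3) + ((q - z) / w0).arg := by
      field_simp
    rw [e1, cis_add]
    have e2 : cis ((q - z) / w0).arg = (q - z) / w0 := h5
    rw [e2, ← hw0, mul_div_cancel₀ _ hne]
    ring
  rwa [h6] at h1

/-- a two-pair centre is a `Ctr` -/
theorem ctr_of_dpt (h : Irr U T) (hz : DPt T z a b c d) (nd : [a, b, c, d, e, f].Nodup) :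
    Ctr U T z a b c d e f where
  irr := h
  pal := hz.pal
  nd := nd
  pairs := fun y hy hc hs => h.twoPairs hz y hy hc hs

theorem Ctr.x_free (C : Ctr U T z a b c d e f) {l : Fin 4} {u : ℝ}
    (h : ∀ᶠ v in 𝓝 u, v ∈ Xs T z a b c d e f l) (s : ℝ) (hs : dist (pt z u) (pt z s) = 1) :
    s ∉ Xs T z a b c d e f l := by
  intro hl
  obtain ⟨t, ht⟩ := col_nonempty (a := a) (b := b) (c := c) (d := d) (e := e) (f := f) l
  obtain ⟨k1, k2⟩ := tri (dist_pt z u) (dist_pt z s)
  have h1 : ∀ᶠ q in 𝓝[sphere z 1] (pt z u), q ∈ Lt T z a b c d e f l :=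
    ev_sphere (p := fun q => q ∈ Lt T z a b c d e f l) h
  refine line_free C.irr (dist_pt z u) (t := t) ?_ hs (fun h => k1 h.symm)
    (fun h => k2 (by rw [← h]; ring)) (C.irr.sub _ (Lt_col C.irr hl ht))
  filter_upwards [h1] with q hq
  exact Lt_col C.irr hq ht

theorem xs_col (h : Irr U T) {l : Fin 4} {u : ℝ} (hu : u ∈ Xs T z a b c d e f l) :
    col a b c d e f l ⊆ T (pt z u) := Lt_col h (show pt z u ∈ Lt T z a b c d e f l from hu)

/-- **the word of a two-pair centre** -/
theorem Ctr.rawU (C : Ctr U T z a b c d e f) (hz : DPt T z a b c d) :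
    RawU (Xs T z a b c d e f) where
  closed := C.x_closed
  cover := C.x_cover
  per := C.x_per
  free := fun l u h => by
    refine ⟨C.x_free h _ (dist_pt_one z u), C.x_free h _ ?_⟩
    have := dist_pt_one z (u - 1)
    rw [sub_add_cancel] at this
    rw [dist_comm]; exact this
  anti := fun u h2 h3 => by
    have k2 := xs_col C.irr h2
    have k3 := xs_col C.irr h3
    rw [pt_three] at k3
    exact C.irr.anti hz (dist_pt z u) (C.irr.sub _ (k2 (Or.inl rfl))) (C.irr.sub _ (k2 (Or.inr rfl)))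
      (C.irr.sub _ (k3 (Or.inl rfl))) (C.irr.sub _ (k3 (Or.inr rfl)))

/-- a swap contains a point with four colours -/
theorem Ctr.swp_four (C : Ctr U T z a b c d e f) {r : Fin 4 → ℕ} {u : ℝ}
    (h : Swp r (Xs T z a b c d e f) u) : 4 ≤ (T (pt z u)).ncard ∨ 4 ≤ (T (pt z (u + 1))).ncard := by
  obtain ⟨l, m, hlm, h1, h2, h3, h4⟩ := h
  by_contra hcon
  push Not at hcon
  refine C.noswap (l := l) (m := m) (fun h => ?_) (dist_pt_one z u) (by omega) (by omega) h1 h2 h3 h4
  subst h; omega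

/-- a flip point of class one with at least four colours -/
def Flip4 (T : ℂ → Set (Fin 6)) (z : ℂ) (a b c d e f : Fin 6) (r : Fin 4 → ℕ) (u : ℝ) : Prop :=
  4 ≤ (T (pt z u)).ncard ∧ (Jmp r (Xs T z a b c d e f) u ∨ Swp r (Xs T z a b c d e f) u ∨
    Swp r (Xs T z a b c d e f) (u - 1))

/-- **Convexity**, class one: ends `{a, b, e}`, `{c, d, f}` -/
theorem Irr.conv_flip (h : Irr U T) (hz : DPt T z a b c d) (nd : [a, b, c, d, e, f].Nodup)
    {x y : ℝ} (hxy : x + 3 < y) : ∃ u ∈ Ioo x y,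
      (T (pt z u) = {a, b, e} ∧ pt z u ∈ closure (Ex T z {a, b})) ∨
      (T (pt z u) = {c, d, f} ∧ pt z u ∈ closure (Ex T z {c, d})) ∨
      Flip4 T z a b c d e f rk1 u := by
  have C := ctr_of_dpt h hz nd
  have w := C.rawU hz
  obtain ⟨u, hu, hJ | ⟨hu1, hS⟩⟩ := w.conv Rk.one hxy
  · by_cases h4 : 4 ≤ (T (pt z u)).ncard
    · exact ⟨u, hu, Or.inr (Or.inr ⟨h4, Or.inl hJ⟩)⟩
    · have h3 : (T (pt z u)).ncard ≤ 3 := by omega
      refine ⟨u, hu, ?_⟩
      have key : ∀ {i j k : Fin 6}, i ∈ T (pt z u) → j ∈ T (pt z u) → k ∈ T (pt z u) →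
          i ≠ j → i ≠ k → j ≠ k → T (pt z u) = {i, j, k} := by
        intro i j k hi hj hk hij hik hjk
        have hs : ({i, j, k} : Set (Fin 6)) ⊆ T (pt z u) := by
          rintro m (rfl | rfl | hm)
          · exact hi
          · exact hj
          · rw [mem_singleton_iff] at hm; subst hm; exact hk
        have hc : ({i, j, k} : Set (Fin 6)).ncard = 3 :=
          Set.ncard_eq_three.2 ⟨i, j, k, hij, hik, hjk, rfl⟩
        exact (Set.eq_of_subset_of_ncard_le hs (by omega) (Set.toFinite _)).symm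
      obtain ⟨l, m, hlm, hl, hm⟩ := hJ
      have hcc : ∀ l m : Fin 4, rk1 l + 2 ≤ rk1 m →
          (l = 2 ∧ m = 0) ∨ (l = 2 ∧ m = 3) ∨ (l = 1 ∧ m = 3) := by decide
      have hc := hcc l m hlm
      have hn := nd
      simp only [List.nodup_cons, List.mem_cons, List.not_mem_nil, or_false, not_or, List.nodup_nil,
        and_true, not_false_eq_true] at hn
      obtain ⟨⟨ab, ac, ad, ae, af⟩, ⟨bc, bd, be, bf⟩, ⟨cd, ce, cf⟩, ⟨de, df⟩, ef⟩ := hn
      rcases hc with ⟨rfl, rfl⟩ | ⟨rfl, rfl⟩ | ⟨rfl, rfl⟩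
      · have k1 := xs_col C.irr hl
        have k2 := xs_col C.irr hm
        exact Or.inl ⟨key (k1 (Or.inl rfl)) (k1 (Or.inr rfl)) (k2 rfl) ab ae be, hl⟩
      · exact absurd hm (fun h' => C.noAC h3 hl h')
      · have k1 := xs_col C.irr hl
        have k2 := xs_col C.irr hm
        exact Or.inr (Or.inl ⟨key (k2 (Or.inl rfl)) (k2 (Or.inr rfl)) (k1 rfl) cd cf df, hm⟩)
  · rcases C.swp_four hS with h4 | h4
    · exact ⟨u, hu, Or.inr (Or.inr ⟨h4, Or.inr (Or.inl hS)⟩)⟩
    · refine ⟨u + 1, ⟨by linarith [hu.1], hu1⟩, Or.inr (Or.inr ⟨h4, Or.inr (Or.inr ?_)⟩)⟩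
      rw [add_sub_cancel_right]; exact hS

end Vale.Agent.P032.S5.H767
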