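import Vale.Agent.P032.S5.H12.Fld2
import Vale.Agent.P032.R2.H479.Hub

/-!
# P032: interface between the ring analysis and the geometry of the hubs

`HubW U T`: the frame `Hub` (helper479) and what the analysis of the classes of the two-pair centres
has to deliver when all points have at most four colours.
-/

open Set Filter Topology Metric

noncomputable section

namespace Vale.Agent.P032.Six

/-- the output of the ring analysis of the two-pair centres -/
structure HubW (U : Fin 6 → Set ℂ) (T : ℂ → Set (Fin 6)) : Prop extends Hub U T where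
  /-- a class with two ends of both types does not occur -/
  n22 : ∀ {z v v' q q' : ℂ}, EE T z v → EE T z v' → EE T z q → EE T z q' → T v' = T v →
    T q = (T v)ᶜ → T q' = (T v)ᶜ → v = v' ∨ q = q'
  /-- a class with one end of both types does not occur -/
  two : ∀ {z v q : ℂ}, EE T z v → EE T z q → T q = (T v)ᶜ →
    (∃ v', v' ≠ v ∧ EE T z v' ∧ T v' = T v) ∨ ∃ q', q' ≠ q ∧ EE T z q' ∧ T q' = T q
  /-- no triangle of pairwise rhombic centres at a full end -/
  tri : ∀ {v c₁ c₂ c₃ : ℂ}, EE T c₁ v → EE T c₂ v → EE T c₃ v → c₁ ≠ c₂ → c₁ ≠ c₃ → c₂ ≠ c₃ →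
    EE T c₁ (c₁ + c₂ - v) → T (c₁ + c₂ - v) = (T v)ᶜ → EE T c₁ (c₁ + c₃ - v) →
    T (c₁ + c₃ - v) = (T v)ᶜ → EE T c₂ (c₂ + c₃ - v) → T (c₂ + c₃ - v) = (T v)ᶜ → False

end Vale.Agent.P032.Six
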