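import Vale.Agent.P032.S5.H80.Anti
import Vale.Agent.P032.S5.H825.End
import Vale.Agent.P032.S5.H824.Two

/-!
# P032: two-pair points are isolated

`Irr.iso` : near a two-pair point `z = ab | cd` no other point has both `a` and `b` in its palette
`Pal U`.  No assumption on the orders of other points.
-/

open Set Filter Topology Metric

noncomputable section

namespace Vale.Agent.P032.Six

variable {k : ℕ} {U : Fin k → Set ℂ} {T : ℂ → Set (Fin k)}

/-- a circle about a point near `z` has points near `z + cis t0` off `S(z)` -/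
theorem exists_off_near {z : ℂ} {t0 η : ℝ} (hη : 0 < η) {x : ℂ} (hxz : x ≠ z) (hx : dist x z < 2) :
    ∃ t, |t - t0| < η ∧ dist (x + cis t) z ≠ 1 := by
  by_cases h0 : dist (x + cis t0) z = 1
  · have h1 : cr (cis t0) (x + cis t0 - z) ≠ 0 := by
      have h2 := cr_ne (z := x + cis t0) (c := x) (q := z) (dist_add_cis x t0) h0 hxz (by
        intro h
        have h3 : x - z = -(2 : ℝ) * cis t0 := by push_cast; linear_combination -h
        rw [dist_eq_norm, h3, norm_mul, norm_cis, norm_neg, Complex.norm_real,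
          Real.norm_of_nonneg (by norm_num)] at hx
        linarith)
      simpa using h2
    obtain ⟨t1, -, h2, -, h3, -⟩ := circle_signs h0 h1 hη
    exact ⟨t1, h2, h3.ne⟩
  · exact ⟨t0, by simpa using hη, h0⟩

/-- **isolation** at a one-sided arc -/
theorem Irr.iso_of_sd (h : Irr U T) {z p : ℂ} {a b : Fin k} (hp : Arc T z p {a, b})
    (hs : Sd U z p a b) : ∀ᶠ x in 𝓝 z, x ≠ z → ¬ (a ∈ Pal U x ∧ b ∈ Pal U x) := by
  obtain ⟨t0, ht0⟩ := exists_cis (u := p - z) (by rw [← dist_eq_norm]; exact hp.1)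
  have hpt : p = z + cis t0 := by rw [← ht0]; ring
  have hN : {w | T w ⊆ {a, b} ∧ ((1 < dist w z → a ∉ Pal U w) ∧ (dist w z < 1 → b ∉ Pal U w))} ∈
      𝓝 p := by
    filter_upwards [h.nhd p, hs] with w h1 h2
    rw [hp.mem] at h1
    exact ⟨h1, h2⟩
  obtain ⟨ε, hε, hball⟩ := Metric.mem_nhds_iff.1 hN
  have hc : ContinuousAt (fun t : ℝ => cis t) t0 := continuous_cis.continuousAt
  obtain ⟨η, hη, hηb⟩ := Metric.continuousAt_iff.1 hc (ε / 2) (by positivity)
  filter_upwards [Metric.ball_mem_nhds z (show 0 < min (ε / 2) 2 by positivity)] with x hx hxz hab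
  rw [mem_ball] at hx
  obtain ⟨t, ht, hoff⟩ := exists_off_near (t0 := t0) hη hxz (hx.trans_le (min_le_right _ _))
  have hw : x + cis t ∈ Metric.ball p ε := by
    rw [mem_ball]
    calc dist (x + cis t) p = dist (x + cis t) (z + cis t0) := by rw [hpt]
      _ ≤ dist x z + dist (cis t) (cis t0) := dist_add_add_le _ _ _ _
      _ < ε / 2 + ε / 2 := by
        have h1 := hηb (x := t) (by rw [Real.dist_eq]; exact ht)
        have h2 := hx.trans_le (min_le_left _ _)
        linarith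
      _ = ε := by ring
  obtain ⟨h1, h2, h3⟩ := hball hw
  have hd : dist (x + cis t) x = 1 := dist_add_cis x t
  have key : ∀ i j : Fin k, T (x + cis t) ⊆ {i, j} → i ∉ Pal U (x + cis t) → j ∈ Pal U x →
      False := by
    intro i j hT hi hj
    have h4 : T (x + cis t) ⊆ {j} := by
      intro m hm
      rcases hT hm with rfl | h5
      · exact absurd (h.sub _ hm) hi
      · exact h5
    exact h.mx.notMem' (h.mem_of_single h4) hd hj
  rcases lt_or_gt_of_ne hoff with h4 | h4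
  · exact key b a (by rw [pair_comm]; exact h1) (h3 h4) hab.1
  · exact key a b h1 (h2 h4) hab.2

/-- **two-pair points are isolated** from all points which have the colours of one of the pairs -/
theorem Irr.iso (h : Irr U T) {z : ℂ} {a b c d : Fin k} (hz : DPt T z a b c d) :
    ∀ᶠ x in 𝓝 z, x ≠ z → ¬ (a ∈ Pal U x ∧ b ∈ Pal U x) := by
  obtain ⟨p, hp⟩ := hz.arc1
  rcases h.sides hz hp.1 with h1 | h1
  · exact h.iso_of_sd hp h1
  · refine (h.iso_of_sd (by rw [pair_comm]; exact hp) h1).mono fun x h2 h3 h4 => h2 h3 ⟨h4.2, h4.1⟩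

theorem Irr.iso' (h : Irr U T) {z : ℂ} {a b c d : Fin k} (hz : DPt T z a b c d) :
    ∀ᶠ x in 𝓝 z, x ≠ z → ¬ (c ∈ Pal U x ∧ d ∈ Pal U x) := h.iso hz.swap

/-- the other points near a two-pair point have at most two colours -/
theorem Irr.iso_card (h : Irr U T) {z : ℂ} {a b c d : Fin k} (hz : DPt T z a b c d) :
    ∀ᶠ x in 𝓝 z, x ≠ z → (T x).ncard ≤ 2 := by
  filter_upwards [h.iso hz, h.iso' hz, h.nhd z] with x h1 h2 h3 hx
  have h1 := h1 hx
  have h2 := h2 hx
  by_contra hcon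
  push Not at hcon
  obtain ⟨i, hi, j, hj, m, hm, hij, him, hjm⟩ := (Set.two_lt_ncard_iff (Set.toFinite _)).1 hcon |>
    fun ⟨i, j, m, hi, hj, hm, h4, h5, h6⟩ => (⟨i, hi, j, hj, m, hm, h4, h5, h6⟩ :
      ∃ i, i ∈ T x ∧ ∃ j, j ∈ T x ∧ ∃ m, m ∈ T x ∧ i ≠ j ∧ i ≠ m ∧ j ≠ m)
  have h4 : ∀ l ∈ T x, l = a ∨ l = b ∨ l = c ∨ l = d := by
    intro l hl
    have := h3 hl
    rw [hz.pal] at this
    simpa using this
  have ha : ∀ l ∈ T x, l ∈ Pal U x := fun l hl => h.sub x hl
  rcases h4 i hi with rfl | rfl | rfl | rfl <;> rcases h4 j hj with rfl | rfl | rfl | rfl <;>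
    rcases h4 m hm with rfl | rfl | rfl | rfl <;>
    first
    | exact absurd rfl hij
    | exact absurd rfl him
    | exact absurd rfl hjm
    | exact h1 ⟨ha _ hi, ha _ hj⟩
    | exact h1 ⟨ha _ hj, ha _ hi⟩
    | exact h1 ⟨ha _ hi, ha _ hm⟩
    | exact h1 ⟨ha _ hm, ha _ hi⟩
    | exact h1 ⟨ha _ hj, ha _ hm⟩
    | exact h1 ⟨ha _ hm, ha _ hj⟩
    | exact h2 ⟨ha _ hi, ha _ hj⟩
    | exact h2 ⟨ha _ hj, ha _ hi⟩
    | exact h2 ⟨ha _ hi, ha _ hm⟩
    | exact h2 ⟨ha _ hm, ha _ hi⟩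
    | exact h2 ⟨ha _ hj, ha _ hm⟩
    | exact h2 ⟨ha _ hm, ha _ hj⟩

end Vale.Agent.P032.Six
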