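import Vale.Agent.P032.R2.H784.Iso

/-!
# P032: limits of two-pair points

World with at most four colours.  A limit `z` of two-pair points `ab | cd` has the palette
`{a, b, c, d}`, is not a two-pair point, and all its exact arcs have one and the same pair, `{a, b}`
or `{c, d}`.
-/

open Set Filter Topology Metric

noncomputable section

namespace Vale.Agent.P032.Six

variable {U : Fin 6 → Set ℂ} {T : ℂ → Set (Fin 6)}

theorem DPt.card {z : ℂ} {a b c d : Fin 6} (hz : DPt T z a b c d) : (T z).ncard = 4 := by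
  rw [hz.pal, Set.ncard_insert_of_notMem (by simp [hz.ab, hz.ac, hz.ad]),
    Set.ncard_insert_of_notMem (by simp [hz.bc, hz.bd]), Set.ncard_pair hz.cd]

/-- limits of points with the palette `Q`, four colours -/
theorem Irr.limit_pal (h : Irr U T) (h4 : ∀ x, (T x).ncard ≤ 4) {z : ℂ} {Q : Set (Fin 6)}
    (hQ : Q.ncard = 4) (hz : ∃ᶠ x in 𝓝 z, T x = Q) : T z = Q := by
  have hsub : Q ⊆ T z := by
    intro i hi
    obtain ⟨x, hx1, hx2⟩ := (hz.and_eventually (h.nhd z)).exists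
    exact hx2 (hx1 ▸ hi)
  exact (Set.eq_of_subset_of_ncard_le hsub (by rw [hQ]; exact h4 z) (Set.toFinite _)).symm

/-- an arc of `S(z)` gives arcs with the same pair on the circles about the points near `z` which
have the colours of the pair -/
theorem Irr.arc_near (h : Irr U T) {z p : ℂ} {P : Set (Fin 6)} (hp : Arc T z p P)
    (hP : P.ncard = 2) : ∀ᶠ x in 𝓝 z, P ⊆ T x → ∃ q, Arc T x q P := by
  have h1 : Tendsto (fun x => p + (x - z)) (𝓝 z) (𝓝 p) := by
    have : Continuous fun x : ℂ => p + (x - z) := by fun_prop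
    have h2 := this.tendsto z
    simpa using h2
  filter_upwards [h1.eventually (h.nhd p)] with x hx hsub
  rw [hp.mem] at hx
  have hd : dist (p + (x - z)) x = 1 := by
    rw [dist_eq_norm, show p + (x - z) - x = p - z by ring, ← dist_eq_norm]; exact hp.1
  obtain ⟨q, -, hq1, hq2, hq3, hq4, -⟩ := h.arc_of_sub hd (hx.trans hsub) univ_mem
  have hq : T q = P :=
    Set.eq_of_subset_of_ncard_le (hq3.trans hx) (by rw [hP]; exact hq4) (Set.toFinite _)
  exact ⟨q, hq1, hq2.mono fun q' hq' => hq'.trans hq⟩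

/-- **limits of two-pair points** -/
theorem Irr.limit_dpt (h : Irr U T) (h4 : ∀ x, (T x).ncard ≤ 4) {z : ℂ} {a b c d : Fin 6}
    (hz : ∃ᶠ x in 𝓝 z, x ≠ z ∧ DPt T x a b c d) :
    T z = {a, b, c, d} ∧ (∀ p P, P.ncard = 2 → P ⊆ T z → Arc T z p P → P = {a, b} ∨ P = {c, d}) ∧
    (∃ p P, P.ncard = 2 ∧ P ⊆ T z ∧ Arc T z p P) ∧
    ¬ ((∃ p, Arc T z p {a, b}) ∧ ∃ p, Arc T z p {c, d}) := by
  obtain ⟨x0, -, hx0⟩ := hz.exists
  have hQ : ({a, b, c, d} : Set (Fin 6)).ncard = 4 := by rw [← hx0.pal]; exact hx0.card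
  have hpal : T z = {a, b, c, d} := h.limit_pal h4 hQ (hz.mono fun x hx => hx.2.pal)
  have hz4 : (T z).ncard = 4 := by rw [hpal, hQ]
  refine ⟨hpal, ?_, ?_, ?_⟩
  · intro p P hP hPz hp
    obtain ⟨x, ⟨-, hx⟩, hx2⟩ := (hz.and_eventually (h.arc_near hp hP)).exists
    obtain ⟨q, hq⟩ := hx2 (by rw [hx.pal, ← hpal]; exact hPz)
    rcases h.twoPairs hx q hq.1 (by rw [hq.mem]; exact hq.2) (by
      rw [hq.mem, hx.pal, ← hpal]; exact hPz) with h5 | h5
    · left; rw [← hq.mem]; exact h5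
    · right; rw [← hq.mem]; exact h5
  · obtain ⟨y, hy, hyz⟩ := h.exists_inside hz4 fun y _ => h4 y
    obtain ⟨q, -, hq1, hq2, hq3, hq4, hq5⟩ := h.arc_of_sub hy hyz univ_mem
    refine ⟨q, T q, ?_, hq3.trans hyz, hq1, hq2⟩
    have := Set.ncard_sdiff (hq3.trans hyz) (Set.toFinite _)
    have := Set.ncard_le_ncard (hq3.trans hyz) (Set.toFinite _)
    omega
  · rintro ⟨⟨p, hp⟩, ⟨q, hq⟩⟩
    have hD : DPt T z a b c d := ⟨hpal, hx0.ac, hx0.ad, hx0.bc, hx0.bd, hx0.ab, hx0.cd, ⟨p, hp⟩,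
      ⟨q, hq⟩⟩
    obtain ⟨x, ⟨hx1, hx2⟩, hx3⟩ := (hz.and_eventually (h.iso hD)).exists
    have : ∀ i ∈ T x, i ∈ Pal U x := fun i hi => h.sub x hi
    exact hx3 hx1 ⟨this a (by rw [hx2.pal]; simp), this b (by rw [hx2.pal]; simp)⟩

end Vale.Agent.P032.Six
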