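import Vale.Agent.P032.Words.Jump

/-!
# Words on a circle: the convexity fact, no assumption on the palettes

`RawU X`: the word of a two-pair centre.  Letters `0 = e`, `1 = f`, `2 = A`, `3 = C`; angles in units
of 60 degrees.  `r` is an order of the letters with `A` first and `C` last.  `Jmp r X u`: two letters at
`u` which are not neighbours in the order; `Swp r X u`: the same two neighbours of the order are letters
at `u` and at `u + 1`.  Every open arc longer than 180 degrees contains a `Jmp` or both points of a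
`Swp`.
-/

namespace Vale.Agent.P032.Words

open Set Filter Topology

/-- the word of a two-pair centre, no assumption on the points of the circle -/
structure RawU (X : Fin 4 → Set ℝ) : Prop where
  closed : ∀ l, IsClosed (X l)
  cover : ∀ u, ∃ l, u ∈ X l
  per : ∀ l u, u + 6 ∈ X l ↔ u ∈ X l
  free : ∀ l u, (∀ᶠ v in 𝓝 u, v ∈ X l) → u + 1 ∉ X l ∧ u - 1 ∉ X l
  anti : ∀ u, u ∈ X 2 → u + 3 ∉ X 3

/-- an order of the letters with `A` first and `C` last -/
structure Rk (r : Fin 4 → ℕ) : Prop where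
  inj : ∀ l m, r l = r m → l = m
  two : r 2 = 0
  three : r 3 = 3
  lt : ∀ l, r l < 4

/-- `A < f < e < C` -/
def rk1 : Fin 4 → ℕ := ![2, 1, 0, 3]

/-- `A < e < f < C` -/
def rk2 : Fin 4 → ℕ := ![1, 2, 0, 3]

theorem Rk.one : Rk rk1 := ⟨by decide, rfl, rfl, by decide⟩

theorem Rk.two' : Rk rk2 := ⟨by decide, rfl, rfl, by decide⟩

/-- two letters which are not neighbours in the order -/
def Jmp (r : Fin 4 → ℕ) (X : Fin 4 → Set ℝ) (u : ℝ) : Prop :=
  ∃ l m, r l + 2 ≤ r m ∧ u ∈ X l ∧ u ∈ X m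

/-- two neighbours of the order are letters at `u` and at `u + 1` -/
def Swp (r : Fin 4 → ℕ) (X : Fin 4 → Set ℝ) (u : ℝ) : Prop :=
  ∃ l m, r m = r l + 1 ∧ u ∈ X l ∧ u ∈ X m ∧ u + 1 ∈ X l ∧ u + 1 ∈ X m

variable {X : Fin 4 → Set ℝ} {r : Fin 4 → ℕ}

/-- the comparison at `u` can be `<` -/
def UpS (r : Fin 4 → ℕ) (X : Fin 4 → Set ℝ) : Set ℝ := {u | ∃ l m, r l < r m ∧ u ∈ X l ∧ u + 1 ∈ X m}

/-- the comparison at `u` can be `>` -/
def DnS (r : Fin 4 → ℕ) (X : Fin 4 → Set ℝ) : Set ℝ := {u | ∃ l m, r m < r l ∧ u ∈ X l ∧ u + 1 ∈ X m}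

theorem RawU.pair_closed (w : RawU X) (l m : Fin 4) : IsClosed {u | u ∈ X l ∧ u + 1 ∈ X m} :=
  (w.closed l).inter ((w.closed m).preimage (continuous_id.add continuous_const))

theorem RawU.up_closed (w : RawU X) : IsClosed (UpS r X) := by
  have : UpS r X = ⋃ l, ⋃ m, {u | r l < r m ∧ u ∈ X l ∧ u + 1 ∈ X m} := by
    ext u; simp [UpS]
  rw [this]
  refine isClosed_iUnion_of_finite fun l => isClosed_iUnion_of_finite fun m => ?_
  by_cases h : r l < r m
  · simpa [h] using w.pair_closed l m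
  · simp [h]

theorem RawU.dn_closed (w : RawU X) : IsClosed (DnS r X) := by
  have : DnS r X = ⋃ l, ⋃ m, {u | r m < r l ∧ u ∈ X l ∧ u + 1 ∈ X m} := by
    ext u; simp [DnS]
  rw [this]
  refine isClosed_iUnion_of_finite fun l => isClosed_iUnion_of_finite fun m => ?_
  by_cases h : r m < r l
  · simpa [h] using w.pair_closed l m
  · simp [h]

/-- a single letter is absent at the neighbours -/
theorem RawU.int (w : RawU X) {u : ℝ} {l : Fin 4} (only : ∀ m, u ∈ X m → m = l) :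
    u + 1 ∉ X l ∧ u - 1 ∉ X l := by
  refine w.free l u ?_
  have h1 : ∀ m, ∀ᶠ v in 𝓝 u, m ≠ l → v ∉ X m := by
    intro m
    by_cases hm : m = l
    · exact Eventually.of_forall fun v h => absurd hm h
    · filter_upwards [(w.closed m).isOpen_compl.mem_nhds fun h => hm (only m h)] with v hv _
      exact hv
  filter_upwards [eventually_all.2 h1] with v hv
  obtain ⟨m, hm⟩ := w.cover v
  by_cases h : m = l
  · rw [← h]; exact hm
  · exact absurd hm (hv m h)

theorem RawU.up_or_dn (w : RawU X) (hr : Rk r) (u : ℝ) : u ∈ UpS r X ∨ u ∈ DnS r X := by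
  have key : ∃ l m, l ≠ m ∧ u ∈ X l ∧ u + 1 ∈ X m := by
    obtain ⟨l, hl⟩ := w.cover u
    obtain ⟨m, hm⟩ := w.cover (u + 1)
    by_cases hlm : l = m
    · subst hlm
      by_contra hcon
      push Not at hcon
      refine (w.int (u := u) (l := l) fun n hn => ?_).1 hm
      by_contra hnl
      exact hcon n l hnl hn hm
    · exact ⟨l, m, hlm, hl, hm⟩
  obtain ⟨l, m, hlm, hl, hm⟩ := key
  rcases lt_trichotomy (r l) (r m) with h | h | h
  · exact Or.inl ⟨l, m, h, hl, hm⟩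
  · exact absurd (hr.inj _ _ h) hlm
  · exact Or.inr ⟨l, m, h, hl, hm⟩

/-- the cause of an ambiguous comparison -/
theorem RawU.amb (_ : RawU X) (hr : Rk r) {u : ℝ} (h1 : u ∈ UpS r X) (h2 : u ∈ DnS r X) :
    Jmp r X u ∨ Jmp r X (u + 1) ∨ Swp r X u := by
  obtain ⟨l, m, hlm, hl, hm⟩ := h1
  obtain ⟨l', m', hlm', hl', hm'⟩ := h2
  by_cases k1 : Jmp r X u
  · exact Or.inl k1
  by_cases k2 : Jmp r X (u + 1)
  · exact Or.inr (Or.inl k2)
  refine Or.inr (Or.inr ?_)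
  have a1 : r l' < r l + 2 := by
    by_contra hc
    exact k1 ⟨l, l', by omega, hl, hl'⟩
  have a2 : r m < r m' + 2 := by
    by_contra hc
    exact k2 ⟨m', m, by omega, hm', hm⟩
  have e1 : r m = r l' := by omega
  have e2 : r m' = r l := by omega
  have e3 : r m = r l + 1 := by omega
  have f1 := hr.inj _ _ e1
  have f2 := hr.inj _ _ e2
  subst f1; subst f2
  exact ⟨m', m, e3, hl, hl', hm', hm⟩

/-- points at which every letter is the letter of a neighbourhood -/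
def Gen (X : Fin 4 → Set ℝ) : Set ℝ := {u | ∀ l, u ∈ X l → ∀ᶠ v in 𝓝 u, v ∈ X l}

theorem RawU.gen_open_dense (w : RawU X) : IsOpen (Gen X) ∧ Dense (Gen X) := by
  have : Gen X = ⋂ l, (frontier (X l))ᶜ := by
    ext u
    simp only [Gen, mem_ofPred_eq, mem_iInter, mem_compl_iff]
    refine forall_congr' fun l => ?_
    rw [(w.closed l).frontier_eq]
    simp only [Set.mem_sdiff, not_and, not_not, mem_interior_iff_mem_nhds]
    rfl
  rw [this]
  have ho : ∀ l, IsOpen (frontier (X l))ᶜ := fun l => isClosed_frontier.isOpen_compl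
  have hd : ∀ l, Dense (frontier (X l))ᶜ := fun l =>
    interior_eq_empty_iff_dense_compl.1 (interior_frontier (w.closed l))
  constructor
  · exact isOpen_iInter_of_finite ho
  · exact dense_iInter_of_isOpen ho hd

theorem RawU.gen_three (w : RawU X) {x y : ℝ} (h : x < y) :
    ∃ u ∈ Ioo x y, u ∈ Gen X ∧ u + 1 ∈ Gen X ∧ u + 2 ∈ Gen X := by
  obtain ⟨ho, hd⟩ := w.gen_open_dense
  have hs : ∀ s : ℝ, IsOpen {u : ℝ | u + s ∈ Gen X} ∧ Dense {u : ℝ | u + s ∈ Gen X} := by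
    intro s
    refine ⟨ho.preimage (continuous_id.add continuous_const), ?_⟩
    exact hd.preimage (Homeomorph.addRight s).isOpenMap
  have h2 : Dense (Gen X ∩ {u : ℝ | u + 1 ∈ Gen X}) := hd.inter_of_isOpen_left (hs 1).2 ho
  have h3 : Dense ((Gen X ∩ {u : ℝ | u + 1 ∈ Gen X}) ∩ {u : ℝ | u + 2 ∈ Gen X}) :=
    h2.inter_of_isOpen_left (hs 2).2 (ho.inter (hs 1).1)
  obtain ⟨u, hu, hu'⟩ := h3.exists_mem_open isOpen_Ioo (nonempty_Ioo.2 h)
  exact ⟨u, hu', hu.1.1, hu.1.2, hu.2⟩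

theorem RawU.anti' (w : RawU X) {u : ℝ} (h3 : u ∈ X 3) : u + 3 ∉ X 2 := by
  intro h
  refine w.anti _ h ?_
  have e : u + 3 + 3 = u + 6 := by ring
  rw [e]
  exact (w.per 3 u).2 h3

/-- **Convexity.** Every open arc longer than 180 degrees contains both points of an ambiguous
pair. -/
theorem RawU.conv_amb (w : RawU X) (hr : Rk r) {x y : ℝ} (hxy : x + 3 < y) :
    ∃ u ∈ Ioo x (y - 1), u ∈ UpS r X ∧ u ∈ DnS r X := by
  by_contra hcon
  push Not at hcon
  have hI : IsPreconnected (Ioo x (y - 1)) := isPreconnected_Ioo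
  have hdis : ∀ u ∈ Ioo x (y - 1), u ∈ UpS r X → u ∈ DnS r X → False := hcon
  have hall : (∀ u ∈ Ioo x (y - 1), u ∉ DnS r X) ∨ (∀ u ∈ Ioo x (y - 1), u ∉ UpS r X) := by
    by_contra hc
    push Not at hc
    obtain ⟨⟨u1, hu1, hd1⟩, ⟨u2, hu2, hd2⟩⟩ := hc
    obtain ⟨v, hv, hvu, hvd⟩ := isPreconnected_closed_iff.1 hI _ _ w.up_closed w.dn_closed
      (fun u _ => w.up_or_dn hr u) ⟨u2, hu2, hd2⟩ ⟨u1, hu1, hd1⟩
    exact hdis v hv hvu hvd
  obtain ⟨u, hu, g0, g1, g2⟩ := w.gen_three (x := x) (y := y - 3) (by linarith)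
  obtain ⟨l0, h0⟩ := w.cover u
  obtain ⟨l1, h1⟩ := w.cover (u + 1)
  obtain ⟨l2, h2⟩ := w.cover (u + 2)
  obtain ⟨l3, h3⟩ := w.cover (u + 3)
  have e2 : u + 1 + 1 = u + 2 := by ring
  have e3 : u + 2 + 1 = u + 3 := by ring
  have n01 : l0 ≠ l1 := by
    rintro rfl
    exact (w.free _ _ (g0 _ h0)).1 h1
  have n12 : l1 ≠ l2 := by
    rintro rfl
    refine (w.free _ _ (g1 _ h1)).1 ?_
    rw [e2]; exact h2
  have n23 : l2 ≠ l3 := by
    rintro rfl
    refine (w.free _ _ (g2 _ h2)).1 ?_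
    rw [e3]; exact h3
  have m0 : u ∈ Ioo x (y - 1) := ⟨hu.1, by linarith [hu.2]⟩
  have m1 : u + 1 ∈ Ioo x (y - 1) := ⟨by linarith [hu.1], by linarith [hu.2]⟩
  have m2 : u + 2 ∈ Ioo x (y - 1) := ⟨by linarith [hu.1], by linarith [hu.2]⟩
  have b0 := hr.lt l0
  have b1 := hr.lt l1
  have b2 := hr.lt l2
  have b3 := hr.lt l3
  have i01 : r l0 ≠ r l1 := fun h => n01 (hr.inj _ _ h)
  have i12 : r l1 ≠ r l2 := fun h => n12 (hr.inj _ _ h)
  have i23 : r l2 ≠ r l3 := fun h => n23 (hr.inj _ _ h)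
  rcases hall with hall | hall
  · have k0 : ¬ r l1 < r l0 := fun h => hall _ m0 ⟨l0, l1, h, h0, h1⟩
    have k1 : ¬ r l2 < r l1 := fun h => hall _ m1 ⟨l1, l2, h, h1, by rw [e2]; exact h2⟩
    have k2 : ¬ r l3 < r l2 := fun h => hall _ m2 ⟨l2, l3, h, h2, by rw [e3]; exact h3⟩
    have f0 : r l0 = r 2 := by rw [hr.two]; omega
    have f3 : r l3 = r 3 := by rw [hr.three]; omega
    have q0 := hr.inj _ _ f0
    have q3 := hr.inj _ _ f3
    subst q0; subst q3
    exact w.anti u h0 h3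
  · have k0 : ¬ r l0 < r l1 := fun h => hall _ m0 ⟨l0, l1, h, h0, h1⟩
    have k1 : ¬ r l1 < r l2 := fun h => hall _ m1 ⟨l1, l2, h, h1, by rw [e2]; exact h2⟩
    have k2 : ¬ r l2 < r l3 := fun h => hall _ m2 ⟨l2, l3, h, h2, by rw [e3]; exact h3⟩
    have f0 : r l0 = r 3 := by rw [hr.three]; omega
    have f3 : r l3 = r 2 := by rw [hr.two]; omega
    have q0 := hr.inj _ _ f0
    have q3 := hr.inj _ _ f3
    subst q0; subst q3
    exact w.anti' h0 h3

/-- every open arc longer than 180 degrees contains a `Jmp` or both points of a `Swp` -/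
theorem RawU.conv (w : RawU X) (hr : Rk r) {x y : ℝ} (hxy : x + 3 < y) :
    ∃ u ∈ Ioo x y, Jmp r X u ∨ (u + 1 < y ∧ Swp r X u) := by
  obtain ⟨u, hu, h1, h2⟩ := w.conv_amb hr hxy
  rcases w.amb hr h1 h2 with h3 | h3 | h3
  · exact ⟨u, ⟨hu.1, by linarith [hu.2]⟩, Or.inl h3⟩
  · exact ⟨u + 1, ⟨by linarith [hu.1], by linarith [hu.2]⟩, Or.inl h3⟩
  · exact ⟨u, ⟨hu.1, by linarith [hu.2]⟩, Or.inr ⟨by linarith [hu.2], h3⟩⟩

end Vale.Agent.P032.Words
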