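import Vale.Agent.P032.R2.H784.ConvW

/-!
# Words on a circle: essential letters

`essX X l` = closure of the interior of `X l`: the points which are limits of points `u` with `l` a letter
on a neighbourhood of `u`.  The word of the essential letters satisfies the same axioms, so every
theorem on `RawU` can be used with essential letters.
-/

namespace Vale.Agent.P032.Words

open Set Filter Topology

variable {X : Fin 4 → Set ℝ} {r : Fin 4 → ℕ}

/-- essential letters -/
def essX (X : Fin 4 → Set ℝ) (l : Fin 4) : Set ℝ := closure (interior (X l))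

theorem RawU.ess_sub (w : RawU X) (l : Fin 4) : essX X l ⊆ X l :=
  closure_minimal interior_subset (w.closed l)

theorem RawU.gen_sub (_ : RawU X) {u : ℝ} (hu : u ∈ Gen X) {l : Fin 4} (hl : u ∈ X l) :
    u ∈ interior (X l) := mem_interior_iff_mem_nhds.2 (hu l hl)

theorem RawU.ess_cover (w : RawU X) (u : ℝ) : ∃ l, u ∈ essX X l := by
  have h1 : Gen X ⊆ ⋃ l, interior (X l) := by
    intro v hv
    obtain ⟨l, hl⟩ := w.cover v
    exact mem_iUnion.2 ⟨l, w.gen_sub hv hl⟩
  have h2 : u ∈ closure (⋃ l, interior (X l)) :=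
    closure_mono h1 (w.gen_open_dense.2 u)
  rw [closure_iUnion_of_finite] at h2
  exact mem_iUnion.1 h2

theorem per_nhds {S : Set ℝ} (hper : ∀ u, u + 6 ∈ S ↔ u ∈ S) (u : ℝ) :
    u + 6 ∈ closure (interior S) ↔ u ∈ closure (interior S) := by
  have e : (Homeomorph.addRight (6 : ℝ)) ⁻¹' S = S := by
    ext v; exact hper v
  have h1 : (Homeomorph.addRight (6 : ℝ)) ⁻¹' closure (interior S) = closure (interior S) := by
    rw [Homeomorph.preimage_closure, Homeomorph.preimage_interior, e]
  constructor
  · intro h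
    rw [← h1]; exact h
  · intro h
    rw [← h1] at h; exact h

/-- **essential words** -/
theorem RawU.ess (w : RawU X) : RawU (essX X) where
  closed := fun _ => isClosed_closure
  cover := w.ess_cover
  per := fun l u => per_nhds (w.per l) u
  free := fun l u h => by
    obtain ⟨h1, h2⟩ := w.free l u (h.mono fun v hv => w.ess_sub l hv)
    exact ⟨fun h3 => h1 (w.ess_sub l h3), fun h3 => h2 (w.ess_sub l h3)⟩
  anti := fun u h2 h3 => w.anti u (w.ess_sub 2 h2) (w.ess_sub 3 h3)

/-- near an essential letter `l` of `u` there are generic points with the letter `l` -/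
theorem RawU.ess_gen (w : RawU X) {u : ℝ} {l : Fin 4} (hu : u ∈ essX X l) {s : Set ℝ}
    (hs : s ∈ 𝓝 u) : ∃ v ∈ s, v ∈ Gen X ∧ ∀ᶠ t in 𝓝 v, t ∈ X l := by
  obtain ⟨v, hvs, hv⟩ := mem_closure_iff_nhds.1 hu _ (interior_mem_nhds.2 hs)
  obtain ⟨t, ht3, ht1, ht2⟩ := w.gen_open_dense.2.exists_mem_open
    (isOpen_interior.inter isOpen_interior) ⟨v, hvs, hv⟩
  exact ⟨t, interior_subset ht1, ht3, mem_interior_iff_mem_nhds.1 ht2⟩

end Vale.Agent.P032.Words
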