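import Mathlib

/-!
# P032: systems of letters at finitely many coupled positions, no tameness

`X p l : Set ℝ` are the times at which `l` is a letter at the position `p` (closed sets which cover
the line).  `C p l p' l'`: conflict.  A letter at `p` on a neighbourhood of `t` excludes the
conflicting letters at `t`.  A selection is a choice of one letter for every position; it is legal
if it has no conflict.  `Sys.class_eq`: if on an interval at every time all legal selections from the
palettes have the same class, then the class does not depend on the time.  `G` is an open dense set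
of times (away from the contacts of the centres) at which the rule holds.
-/

namespace Vale.Agent.P032.Words

open Set Filter Topology

variable {P Λ γ : Type}

/-- coupled positions -/
structure Sys (X : P → Λ → Set ℝ) (C : P → Λ → P → Λ → Prop) (G : Set ℝ) : Prop where
  closed : ∀ p l, IsClosed (X p l)
  cover : ∀ p t, ∃ l, t ∈ X p l
  gopen : IsOpen G
  gdense : Dense G
  free : ∀ p l, ∀ t ∈ G, (∀ᶠ s in 𝓝 t, s ∈ X p l) → ∀ p' l', C p l p' l' → t ∉ X p' l'

/-- a selection from the palettes at `t` -/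
def Sel (X : P → Λ → Set ℝ) (t : ℝ) (h : P → Λ) : Prop := ∀ p, t ∈ X p (h p)

/-- no conflict -/
def Legal (C : P → Λ → P → Λ → Prop) (h : P → Λ) : Prop := ∀ p p', ¬ C p (h p) p' (h p')

/-- times at which every letter is the letter of a neighbourhood -/
def GenS (X : P → Λ → Set ℝ) : Set ℝ := {t | ∀ p l, t ∈ X p l → ∀ᶠ s in 𝓝 t, s ∈ X p l}

variable {X : P → Λ → Set ℝ} {C : P → Λ → P → Λ → Prop} {G : Set ℝ}

theorem Sys.legal_of_gen (S : Sys X C G) {t : ℝ} (hG : t ∈ G) (ht : t ∈ GenS X) {h : P → Λ}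
    (hh : Sel X t h) : Legal C h :=
  fun p p' hc => S.free p (h p) t hG (ht p _ (hh p)) p' _ hc (hh p')

theorem Sys.exists_sel (S : Sys X C G) (t : ℝ) : ∃ h, Sel X t h :=
  ⟨fun p => (S.cover p t).choose, fun p => (S.cover p t).choose_spec⟩

theorem Sys.sel_closed (S : Sys X C G) (h : P → Λ) : IsClosed {t | Sel X t h} := by
  have : {t | Sel X t h} = ⋂ p, X p (h p) := by ext t; simp [Sel]
  rw [this]
  exact isClosed_iInter fun p => S.closed p _

variable [Finite P] [Finite Λ]

theorem Sys.gen_open_dense (S : Sys X C G) : IsOpen (GenS X) ∧ Dense (GenS X) := by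
  have : GenS X = ⋂ p, ⋂ l, (frontier (X p l))ᶜ := by
    ext t
    simp only [GenS, mem_ofPred_eq, mem_iInter, mem_compl_iff]
    refine forall_congr' fun p => forall_congr' fun l => ?_
    rw [(S.closed p l).frontier_eq]
    simp only [Set.mem_sdiff, not_and, not_not, mem_interior_iff_mem_nhds]
    rfl
  rw [this]
  have ho : ∀ p l, IsOpen (frontier (X p l))ᶜ := fun p l => isClosed_frontier.isOpen_compl
  have hd : ∀ p l, Dense (frontier (X p l))ᶜ := fun p l =>
    interior_eq_empty_iff_dense_compl.1 (interior_frontier (S.closed p l))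
  exact ⟨isOpen_iInter_of_finite fun p => isOpen_iInter_of_finite fun l => ho p l,
    dense_iInter_of_isOpen (fun p => isOpen_iInter_of_finite fun l => ho p l)
      fun p => dense_iInter_of_isOpen (ho p) (hd p)⟩

theorem Sys.good_open_dense (S : Sys X C G) : IsOpen (G ∩ GenS X) ∧ Dense (G ∩ GenS X) :=
  ⟨S.gopen.inter S.gen_open_dense.1, S.gdense.inter_of_isOpen_left S.gen_open_dense.2 S.gopen⟩

/-- at every time there is a legal selection -/
theorem Sys.exists_legal (S : Sys X C G) (t : ℝ) : ∃ h, Sel X t h ∧ Legal C h := by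
  have hc : IsClosed (⋃ h ∈ {h | Legal C h}, {t | Sel X t h}) :=
    (Set.toFinite _).isClosed_biUnion fun h _ => S.sel_closed h
  have hsub : G ∩ GenS X ⊆ ⋃ h ∈ {h | Legal C h}, {t | Sel X t h} := by
    intro s hs
    obtain ⟨h, hh⟩ := S.exists_sel s
    exact mem_biUnion (S.legal_of_gen hs.1 hs.2 hh) hh
  have : t ∈ ⋃ h ∈ {h | Legal C h}, {t | Sel X t h} :=
    hc.closure_subset_iff.2 hsub (S.good_open_dense.2 t)
  obtain ⟨h, h1, h2⟩ := mem_iUnion₂.1 this
  exact ⟨h, h2, h1⟩

/-- every generic time near `t` has legal selections inside the palettes at `t` -/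
theorem Sys.near (S : Sys X C G) (t : ℝ) : ∀ᶠ s in 𝓝 t, ∀ h, Sel X s h → Sel X t h := by
  have h1 : ∀ p l, ∀ᶠ s in 𝓝 t, s ∈ X p l → t ∈ X p l := by
    intro p l
    by_cases ht : t ∈ X p l
    · exact Eventually.of_forall fun s _ => ht
    · filter_upwards [(S.closed p l).isOpen_compl.mem_nhds ht] with s hs hs'
      exact absurd hs' hs
  filter_upwards [eventually_all.2 fun p => eventually_all.2 (h1 p)] with s hs h hh p
  exact hs p _ (hh p)

/-- **Engine.** -/
theorem Sys.class_eq (S : Sys X C G) (cls : (P → Λ) → γ) {I : Set ℝ} (hI : IsPreconnected I)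
    (hadm : ∀ t ∈ I, ∀ h h', Sel X t h → Legal C h → Sel X t h' → Legal C h' → cls h = cls h')
    {s s' : ℝ} (hs : s ∈ I) (hs' : s' ∈ I) {h h' : P → Λ} (h1 : Sel X s h) (h2 : Legal C h)
    (h1' : Sel X s' h') (h2' : Legal C h') : cls h = cls h' := by
  by_contra hne
  let A : Set ℝ := ⋃ k ∈ {k | Legal C k ∧ cls k = cls h}, {t | Sel X t k}
  let B : Set ℝ := ⋃ k ∈ {k | Legal C k ∧ cls k ≠ cls h}, {t | Sel X t k}
  have hA : IsClosed A := (Set.toFinite _).isClosed_biUnion fun k _ => S.sel_closed k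
  have hB : IsClosed B := (Set.toFinite _).isClosed_biUnion fun k _ => S.sel_closed k
  have hcov : I ⊆ A ∪ B := by
    intro t _
    obtain ⟨k, hk1, hk2⟩ := S.exists_legal t
    by_cases hk : cls k = cls h
    · exact Or.inl (mem_biUnion (show k ∈ {k | Legal C k ∧ cls k = cls h} from ⟨hk2, hk⟩) hk1)
    · exact Or.inr (mem_biUnion (show k ∈ {k | Legal C k ∧ cls k ≠ cls h} from ⟨hk2, hk⟩) hk1)
  obtain ⟨t, htI, htA, htB⟩ := isPreconnected_closed_iff.1 hI A B hA hB hcov
    ⟨s, hs, mem_biUnion (show h ∈ {k | Legal C k ∧ cls k = cls h} from ⟨h2, rfl⟩) h1⟩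
    ⟨s', hs', mem_biUnion (show h' ∈ {k | Legal C k ∧ cls k ≠ cls h} from
      ⟨h2', fun e => hne e.symm⟩) h1'⟩
  obtain ⟨k, ⟨hk1, hk2⟩, hk3⟩ := mem_iUnion₂.1 htA
  obtain ⟨k', ⟨hk1', hk2'⟩, hk3'⟩ := mem_iUnion₂.1 htB
  exact hk2' ((hadm t htI k' k hk3' hk1' hk3 hk1).trans hk2)

end Vale.Agent.P032.Words
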